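import Vale.Agent.P032.H93.Frame

/-!
# P032: the rules for all simultaneous changes in names (decidable form)

`N : Fin 6 → Fin 6` injective: names of the colours.  `K k l : Finset (Fin 6)` the names of the letter
`l` of the circle `k`, `C k` the names of the palette of the centre, `D k k'` the pairs of centres at
distance one.  `EvN D K C P h h'`: the rules for the columns `h`, `h'` before and after if `P s` is the
set of names of the palette of the slot point `s`.  `FrN.ev`: any two limit columns at any time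
satisfy `EvN` with `P = PN`.
-/

open Set Filter Topology Metric

noncomputable section

namespace Vale.Agent.P032.H93

open Vale.Agent.P032.Six Vale.Agent.P032.Sweep Vale.Agent.P032.S5.H767 Vale.Agent.P032.S5.H122
  Vale.Agent.P032.H187

variable {κ Λ : Type} {U : Fin 6 → Set ℂ} {T : ℂ → Set (Fin 6)} {z : κ → ℂ}
  {N : Fin 6 → Fin 6} {D : κ → κ → Prop} {K : κ → Λ → Finset (Fin 6)} {C : κ → Finset (Fin 6)}
  {lt : κ → Set (Fin 6) → Λ} {φ u : ℝ}

/-- the names of a palette -/
def nm (N : Fin 6 → Fin 6) (P : Set (Fin 6)) : Finset (Fin 6) := by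
  classical
  exact Finset.univ.filter fun i => N i ∈ P

theorem mem_nm {P : Set (Fin 6)} {i : Fin 6} : i ∈ nm N P ↔ N i ∈ P := by
  unfold nm
  simp

theorem image_nm (hN : Function.Injective N) (P : Set (Fin 6)) : N '' (nm N P : Set (Fin 6)) = P := by
  have hs : Function.Surjective N := Finite.injective_iff_surjective.1 hN
  ext i
  constructor
  · rintro ⟨j, hj, rfl⟩
    exact mem_nm.1 (Finset.mem_coe.1 hj)
  · intro hi
    obtain ⟨j, rfl⟩ := hs i
    exact ⟨j, Finset.mem_coe.2 (mem_nm.2 hi), rfl⟩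

theorem card_nm (hN : Function.Injective N) (P : Set (Fin 6)) : (nm N P).card = P.ncard := by
  conv_rhs => rw [← image_nm hN P]
  rw [Set.ncard_image_of_injective _ hN, Set.ncard_coe_finset]

theorem nm_image (hN : Function.Injective N) (s : Finset (Fin 6)) :
    nm N (N '' (s : Set (Fin 6))) = s := by
  ext i
  rw [mem_nm]
  constructor
  · rintro ⟨j, hj, hji⟩
    rw [← hN hji]; exact hj
  · exact fun hi => ⟨i, hi, rfl⟩

theorem nm_mono {P Q : Set (Fin 6)} (h : P ⊆ Q) : nm N P ⊆ nm N Q := fun _ hi =>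
  mem_nm.2 (h (mem_nm.1 hi))

theorem nm_disj (hN : Function.Injective N) {P Q : Set (Fin 6)} :
    Disjoint (nm N P) (nm N Q) ↔ Disjoint P Q := by
  have hs : Function.Surjective N := Finite.injective_iff_surjective.1 hN
  rw [Finset.disjoint_left, Set.disjoint_left]
  constructor
  · intro h i hi hj
    obtain ⟨j, rfl⟩ := hs i
    exact h (mem_nm.2 hi) (mem_nm.2 hj)
  · intro h i hi hj
    exact h (mem_nm.1 hi) (mem_nm.1 hj)

theorem image_disj (hN : Function.Injective N) {s t : Finset (Fin 6)} :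
    Disjoint (N '' (s : Set (Fin 6))) (N '' (t : Set (Fin 6))) ↔ Disjoint s t := by
  rw [← nm_disj hN, nm_image hN, nm_image hN]

theorem nm_union (P Q : Set (Fin 6)) : nm N (P ∪ Q) = nm N P ∪ nm N Q := by
  ext i
  rw [Finset.mem_union, mem_nm, mem_nm, mem_nm]; exact Iff.rfl

theorem nm_inter (P Q : Set (Fin 6)) : nm N (P ∩ Q) = nm N P ∩ nm N Q := by
  ext i
  rw [Finset.mem_inter, mem_nm, mem_nm, mem_nm]; exact Iff.rfl

theorem nm_sdiff (P Q : Set (Fin 6)) : nm N (P \ Q) = nm N P \ nm N Q := by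
  ext i
  rw [Finset.mem_sdiff, mem_nm, mem_nm, mem_nm]; exact Iff.rfl

/-- adjacent slots in names -/
def AdjD (D : κ → κ → Prop) (s t : κ × Fin 6) : Prop :=
  (s.1 = t.1 ∧ (t.2 = s.2 + 1 ∨ s.2 = t.2 + 1)) ∨ (s.2 = t.2 ∧ D s.1 t.1)

instance [DecidableEq κ] [DecidableRel D] (s t : κ × Fin 6) : Decidable (AdjD D s t) := by
  unfold AdjD; infer_instance

/-- legal columns in names -/
def LgN (D : κ → κ → Prop) (K : κ → Λ → Finset (Fin 6)) (C : κ → Finset (Fin 6))
    (g : κ × Fin 6 → Λ) : Prop :=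
  (∀ s t, AdjD D s t → Disjoint (K s.1 (g s)) (K t.1 (g t))) ∧
  ∀ c j, 2 ≤ (C c \ (K c (g (c, j)) ∪ K c (g (c, j + 3)))).card

instance [Fintype κ] [DecidableEq κ] [DecidableRel D] (g : κ × Fin 6 → Λ) :
    Decidable (LgN D K C g) := by
  unfold LgN; infer_instance

/-- the rules for the columns before and after, in names; `P s` = the names of the palette of the
slot point -/
structure EvN (D : κ → κ → Prop) (K : κ → Λ → Finset (Fin 6)) (C : κ → Finset (Fin 6))
    (P : κ × Fin 6 → Finset (Fin 6)) (h h' : κ × Fin 6 → Λ) : Prop where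
  leg : LgN D K C h
  leg' : LgN D K C h'
  /-- all colours are in the palette -/
  pal : ∀ s, K s.1 (h s) ∪ K s.1 (h' s) ⊆ P s
  /-- no swap at two adjacent slots with at most three colours -/
  swap : ∀ s t, AdjD D s t → (P s).card ≤ 3 → (P t).card ≤ 3 →
    Disjoint (K s.1 (h s)) (K t.1 (h' t)) ∨ Disjoint (K s.1 (h' s)) (K t.1 (h t))
  /-- no inclusion of palettes at adjacent slots with at most three colours -/
  nsub : ∀ s t, AdjD D s t → (P s).card ≤ 3 → (P t).card ≤ 3 → ¬ P s ⊆ P t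

/-- the frame in names -/
structure FrN (U : Fin 6 → Set ℂ) (T : ℂ → Set (Fin 6)) (z : κ → ℂ) (N : Fin 6 → Fin 6)
    (D : κ → κ → Prop) (K : κ → Λ → Finset (Fin 6)) (C : κ → Finset (Fin 6))
    (lt : κ → Set (Fin 6) → Λ) : Prop where
  inj : Function.Injective N
  fr : Fr U T z (fun k l => N '' (K k l : Set (Fin 6))) lt
  ctr : ∀ k, C k = nm N (T (z k))
  dist : ∀ k k', D k k' → Dist.dist (z k) (z k') = 1

/-- the names of the palettes of the slot points -/
def PN (T : ℂ → Set (Fin 6)) (z : κ → ℂ) (N : Fin 6 → Fin 6) (φ u : ℝ) (s : κ × Fin 6) :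
    Finset (Fin 6) := nm N (T (pos z φ u s))

namespace FrN

theorem adj (F : FrN U T z N D K C lt) {s t : κ × Fin 6} (h : AdjD D s t) : Adj z s t :=
  h.imp id fun h => ⟨h.1, F.dist _ _ h.2⟩

theorem leg (F : FrN U T z N D K C lt) {g : κ × Fin 6 → Λ}
    (h : Lg T z (fun k l => N '' (K k l : Set (Fin 6))) g) : LgN D K C g := by
  refine ⟨fun s t hst => (image_disj F.inj).1 (h.1 s t (F.adj hst)), fun c j => ?_⟩
  have h1 := h.2 c j
  rw [← card_nm F.inj, nm_sdiff, nm_union, nm_image F.inj, nm_image F.inj, ← F.ctr] at h1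
  exact h1

/-- the sweep structure in names -/
theorem sw [Finite κ] [Finite Λ] (F : FrN U T z N D K C lt) (φ : ℝ) :
    Sw (Xl T z φ lt) (LgN D K C) := (F.fr.sw φ).imp fun _ h => F.leg h

/-- **Any two limit columns satisfy the rules in names.** -/
theorem ev [Finite κ] [Finite Λ] (F : FrN U T z N D K C lt) {h h' : κ × Fin 6 → Λ}
    (hh : h ∈ LC (Xl T z φ lt) u ∪ RC (Xl T z φ lt) u)
    (hh' : h' ∈ LC (Xl T z φ lt) u ∪ RC (Xl T z φ lt) u) : EvN D K C (PN T z N φ u) h h' := by
  have E := F.fr.ev hh hh'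
  have hc : ∀ s, (PN T z N φ u s).card = (T (pos z φ u s)).ncard := fun s => card_nm F.inj _
  refine ⟨F.leg E.leg, F.leg E.leg', fun s => ?_, fun s t hst h1 h2 => ?_,
    fun s t hst h1 h2 hsub => ?_⟩
  · have h1 := nm_mono (N := N) (E.pal s)
    rw [nm_union, nm_image F.inj, nm_image F.inj] at h1
    exact h1
  · rw [hc] at h1 h2
    exact (E.swap s t (F.adj hst) h1 h2).imp (image_disj F.inj).1 (image_disj F.inj).1
  · rw [hc] at h1 h2
    refine E.nsub s t (F.adj hst) h1 h2 fun i hi => ?_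
    obtain ⟨j, rfl⟩ := (Finite.injective_iff_surjective.1 F.inj) i
    exact mem_nm.1 (hsub (mem_nm.2 hi))

/-- third colour -/
theorem third [Finite κ] [Finite Λ] (F : FrN U T z N D K C lt) {h h' : κ × Fin 6 → Λ}
    (hh : h ∈ LC (Xl T z φ lt) u ∪ RC (Xl T z φ lt) u)
    (hh' : h' ∈ LC (Xl T z φ lt) u ∪ RC (Xl T z φ lt) u) {s t r : κ × Fin 6} (hst : AdjD D s t)
    (hsr : AdjD D s r) (h1 : (PN T z N φ u s).card ≤ 3) (h2 : (PN T z N φ u t).card ≤ 3)
    (h3 : 2 ≤ (PN T z N φ u s ∩ PN T z N φ u t).card) (hne : pos z φ u r ≠ pos z φ u t)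
    (hne2 : pos z φ u r + pos z φ u t ≠ 2 * pos z φ u s) :
    Disjoint (PN T z N φ u s \ PN T z N φ u t) (PN T z N φ u r) := by
  have E := F.fr.ev hh hh'
  have hc : ∀ s, (PN T z N φ u s).card = (T (pos z φ u s)).ncard := fun s => card_nm F.inj _
  have h4 := E.third s t r (F.adj hst) (F.adj hsr) (by rw [← hc]; exact h1)
    (by rw [← hc]; exact h2) (by
      rw [← card_nm F.inj, nm_inter]; exact h3) hne hne2
  rw [← nm_disj F.inj, nm_sdiff] at h4
  exact h4

end FrN

end Vale.Agent.P032.H93
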