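import Vale.Agent.P032.H93.Four
import Vale.Agent.P032.H93.Names
import Vale.Agent.P032.H747.PairD
import Vale.Agent.P032.H98.AntiP
import Vale.Agent.P032.H747.PairI
import Vale.Agent.P032.H703.Geo

/-!
# P032: two circles with centres at distance one, the rules at a time which is not special

`Pr.ev`: the rules `H747.Ev` for `H747.Pr` at all times in `(0, 1)`; `Pr.evQ`: the same with the names
`Q s` of the palettes of all slot points (no inclusions, third colour).

`Two`: the centres `z 0`, `z 1` at distance one with four colours (`Ctr`), names `N` and `π`.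
`Two.ev`: any two limit columns at a time `u` such that all slot points have at most three colours or the
palette of their centre satisfy `H747.Ev`.
-/

open Set Filter Topology Metric

noncomputable section

namespace Vale.Agent.P032.H93

open Vale.Agent.P032.Six Vale.Agent.P032.Sweep Vale.Agent.P032.S5.H767
  Vale.Agent.P032.H187 Vale.Agent.P032.H747

variable {U : Fin 6 → Set ℂ} {T : ℂ → Set (Fin 6)} {z : Fin 2 → ℂ} {N π : Fin 6 → Fin 6}
  {ty : Fin 3} {φ u : ℝ}

/-- the names of the centre `k` -/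
def nk (N π : Fin 6 → Fin 6) (k : Fin 2) (i : Fin 6) : Fin 6 := N (H747.nm π k i)

/-- the letters of the centre `k` -/
def ltk (N π : Fin 6 → Fin 6) (k : Fin 2) : Set (Fin 6) → Fin 4 :=
  ltF (nk N π k 0) (nk N π k 1) (nk N π k 4) (nk N π k 5)

/-- two centres at distance one -/
structure Two (U : Fin 6 → Set ℂ) (T : ℂ → Set (Fin 6)) (z : Fin 2 → ℂ) (N π : Fin 6 → Fin 6)
    (ty : Fin 3) : Prop where
  irr : Irr U T
  inj : Function.Injective N
  ctr : ∀ k, Ctr U T (z k) (nk N π k 0) (nk N π k 1) (nk N π k 2) (nk N π k 3) (nk N π k 4)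
    (nk N π k 5)
  dist : Dist.dist (z 0) (z 1) = 1
  dpt : ∀ k, k = 0 ∨ ty = 2 →
    DPt T (z k) (nk N π k 0) (nk N π k 1) (nk N π k 2) (nk N π k 3)
  ty0 : ty = 0 → Ex T (z 1) {nk N π 1 0, nk N π 1 1} = ∅
  ty1 : ty ≠ 2 → Ex T (z 1) {nk N π 1 2, nk N π 1 3} = ∅

/-- the colours of a letter of the centre `k` -/
theorem col_nk (k : Fin 2) (l : Fin 4) :
    col (nk N π k 0) (nk N π k 1) (nk N π k 2) (nk N π k 3) (nk N π k 4) (nk N π k 5) l =
      N '' (KK π k l : Set (Fin 6)) := by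
  unfold KK base nk
  fin_cases l <;>
    simp [col, Finset.image_insert, Finset.image_singleton, Set.image_pair]

/-- the frame -/
theorem Two.fr (S : Two U T z N π ty) :
    Fr U T z (fun k l => N '' (KK π k l : Set (Fin 6))) (ltk N π) := by
  have h := Fr.of_ctr S.irr (n := nk N π) S.ctr
  have e : (fun (k : Fin 2) (l : Fin 4) => col (nk N π k 0) (nk N π k 1) (nk N π k 2) (nk N π k 3)
      (nk N π k 4) (nk N π k 5) l) = fun k l => N '' (KK π k l : Set (Fin 6)) := by
    funext k l; exact col_nk k l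
  rw [e] at h
  exact h


theorem lt2' : ∀ l : Fin 4, l.val < 2 → l = 0 ∨ l = 1 := by decide
theorem ge2 : ∀ l : Fin 4, 2 ≤ l.val → l = 2 ∨ l = 3 := by decide
theorem ge3 : ∀ l : Fin 4, 3 ≤ l.val → l = 3 := by decide

namespace Two

/-- an available letter -/
theorem avail (S : Two U T z N π ty) {s : Fin 2 × Fin 6} {l : Fin 4}
    (hu : u ∈ Xl T z φ (ltk N π) s l) : N '' (KK π s.1 l : Set (Fin 6)) ⊆ T (pos z φ u s) :=
  S.fr.avail hu

theorem kk_nonempty (k : Fin 2) (l : Fin 4) : (KK π k l).Nonempty := by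
  unfold KK
  rw [Finset.image_nonempty]
  revert l; decide

theorem W_nonempty (N : Fin 6 → Fin 6) (k : Fin 2) (l : Fin 4) :
    (N '' (KK π k l : Set (Fin 6))).Nonempty := by
  obtain ⟨i, hi⟩ := kk_nonempty (π := π) k l
  exact ⟨N i, i, hi, rfl⟩

/-- the free letters are not in the palette of the centre -/
theorem free (S : Two U T z N π ty) {k : Fin 2} {l : Fin 4} (hl : l.val < 2) :
    ¬ N '' (KK π k l : Set (Fin 6)) ⊆ T (z k) := by
  intro hsub
  have C := S.ctr k
  have hn := C.nd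
  simp only [List.nodup_cons, List.mem_cons, List.not_mem_nil, or_false, not_or, List.nodup_nil,
    and_true, not_false_eq_true] at hn
  obtain ⟨⟨ab, ac, ad, ae, af⟩, ⟨bc, bd, be, bf⟩, ⟨cd, ce, cf⟩, ⟨de, df⟩, ef⟩ := hn
  rw [← col_nk, C.pal] at hsub
  have h2 : l = 0 ∨ l = 1 := lt2' l hl
  rcases h2 with rfl | rfl
  · have := hsub (show nk N π k 4 ∈ S5.H767.col (nk N π k 0) (nk N π k 1) (nk N π k 2) (nk N π k 3)
      (nk N π k 4) (nk N π k 5) 0 from rfl)
    rcases this with h | h | h | h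
    · exact ae h.symm
    · exact be h.symm
    · exact ce h.symm
    · exact de h.symm
  · have := hsub (show nk N π k 5 ∈ S5.H767.col (nk N π k 0) (nk N π k 1) (nk N π k 2) (nk N π k 3)
      (nk N π k 4) (nk N π k 5) 1 from rfl)
    rcases this with h | h | h | h
    · exact af h.symm
    · exact bf h.symm
    · exact cf h.symm
    · exact df h.symm

/-- both pairs are not available at a point with at most three colours -/
theorem noAC (S : Two U T z N π ty) {s : Fin 2 × Fin 6} (h3 : (T (pos z φ u s)).ncard ≤ 3)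
    (h2 : u ∈ Xl T z φ (ltk N π) s 2) (h2' : u ∈ Xl T z φ (ltk N π) s 3) : False := by
  have k1 := S.avail h2
  have k2 := S.avail h2'
  have C := S.ctr s.1
  rw [← col_nk] at k1 k2
  have h4 : T (z s.1) ⊆ T (pos z φ u s) := by
    rw [C.pal]
    rintro i (rfl | rfl | rfl | h)
    · exact k1 (Or.inl rfl)
    · exact k1 (Or.inr rfl)
    · exact k2 (Or.inl rfl)
    · rw [mem_singleton_iff] at h; subst h; exact k2 (Or.inr rfl)
  have h5 := Set.ncard_le_ncard h4 (Set.toFinite _)
  have h6 := four_of_ctr C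
  omega

/-- a centre which is not a two-pair point -/
theorem tyOK (S : Two U T z N π ty) {s : Fin 2 × Fin 6} {l : Fin 4}
    (hu : u ∈ Xl T z φ (ltk N π) s l) : TyOK ty s.1 l := by
  intro hk
  obtain ⟨k, j⟩ := s
  obtain rfl : k = 1 := hk
  have hsub : ∀ m : Fin 4, 2 ≤ m.val → N '' (KK π 1 m : Set (Fin 6)) ⊆ T (z 1) := by
    intro m hm
    have C := S.ctr 1
    rw [← col_nk, C.pal]
    have : m = 2 ∨ m = 3 := ge2 m hm
    rcases this with rfl | rfl
    · rintro i (rfl | rfl) <;> simp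
    · rintro i (rfl | rfl) <;> simp
  refine ⟨fun h0 => ?_, fun h1 => ?_⟩
  · by_contra hl
    push Not at hl
    have h3 := S.fr.avail_ex hu (hsub l hl)
    have : l = 2 ∨ l = 3 := ge2 l hl
    rcases this with rfl | rfl
    · have h4 := h3
      rw [← col_nk] at h4
      have h5 : Ex T (z 1) {nk N π 1 0, nk N π 1 1} = ∅ := S.ty0 h0
      have h6 : (S5.H767.col (nk N π 1 0) (nk N π 1 1) (nk N π 1 2) (nk N π 1 3) (nk N π 1 4)
        (nk N π 1 5) 2) = {nk N π 1 0, nk N π 1 1} := rfl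
      rw [h6] at h4
      have h4 : pos z φ u (1, j) ∈ closure (Ex T (z 1) {nk N π 1 0, nk N π 1 1}) := h4
      rw [h5, closure_empty] at h4
      exact h4
    · have h4 := h3
      rw [← col_nk] at h4
      have h5 : Ex T (z 1) {nk N π 1 2, nk N π 1 3} = ∅ := S.ty1 (by rw [h0]; decide)
      have h6 : (S5.H767.col (nk N π 1 0) (nk N π 1 1) (nk N π 1 2) (nk N π 1 3) (nk N π 1 4)
        (nk N π 1 5) 3) = {nk N π 1 2, nk N π 1 3} := rfl
      rw [h6] at h4
      have h4 : pos z φ u (1, j) ∈ closure (Ex T (z 1) {nk N π 1 2, nk N π 1 3}) := h4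
      rw [h5, closure_empty] at h4
      exact h4
  · by_contra hl
    push Not at hl
    obtain rfl : l = 3 := ge3 l hl
    have h4 := S.fr.avail_ex hu (hsub 3 (by decide))
    rw [← col_nk] at h4
    have h5 : Ex T (z 1) {nk N π 1 2, nk N π 1 3} = ∅ := S.ty1 (by rw [h1]; decide)
    have h6 : (S5.H767.col (nk N π 1 0) (nk N π 1 1) (nk N π 1 2) (nk N π 1 3) (nk N π 1 4)
      (nk N π 1 5) 3) = {nk N π 1 2, nk N π 1 3} := rfl
    rw [h6] at h4
    have h4 : pos z φ u (1, j) ∈ closure (Ex T (z 1) {nk N π 1 2, nk N π 1 3}) := h4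
    rw [h5, closure_empty] at h4
    exact h4

/-- closed antipodal rule -/
theorem opp (S : Two U T z N π ty) {k : Fin 2} {j : Fin 6} (hk : k = 0 ∨ ty = 2)
    (h2 : u ∈ Xl T z φ (ltk N π) (k, j) 2) (h3 : u ∈ Xl T z φ (ltk N π) (k, j + 3) 3) :
    False := by
  have C := S.ctr k
  have D := S.dpt k hk
  have hsub : N '' (KK π k 2 : Set (Fin 6)) ⊆ T (z k) := by
    rw [← col_nk, C.pal]
    rintro i (rfl | rfl) <;> simp
  have k2 := S.fr.avail_ex h2 hsub
  rw [← col_nk] at k2
  have k2 : pos z φ u (k, j) ∈ closure (Ex T (z k) {nk N π k 0, nk N π k 1}) := k2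
  have k3 := S.avail h3
  rw [← col_nk] at k3
  refine S.irr.anti_clo D (dist_pos z φ u (k, j + 3)) (k3 (Or.inl rfl)) (k3 (Or.inr rfl)) ?_
  rw [pos_add3, sub_sub_cancel]
  exact k2

open Classical in
/-- the points with the palette of their centre -/
def tau (T : ℂ → Set (Fin 6)) (z : Fin 2 → ℂ) (φ u : ℝ) (s : Fin 2 × Fin 6) : Bool :=
  decide (T (pos z φ u s) = T (z s.1))

theorem tau_true {s : Fin 2 × Fin 6} :
    tau T z φ u s = true ↔ T (pos z φ u s) = T (z s.1) := by
  unfold tau; exact decide_eq_true_iff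

theorem tau_false {s : Fin 2 × Fin 6} :
    tau T z φ u s = false ↔ T (pos z φ u s) ≠ T (z s.1) := by
  unfold tau; exact decide_eq_false_iff_not

theorem loc_true (S : Two U T z N π ty) {s : Fin 2 × Fin 6} {l : Fin 4}
    (ht : T (pos z φ u s) = T (z s.1)) (hu : u ∈ Xl T z φ (ltk N π) s l) : 2 ≤ l.val := by
  by_contra hcon
  push Not at hcon
  exact S.free hcon (ht ▸ S.avail hu)

/-- **the rules**, for any two available legal columns -/
theorem adj_of (S : Two U T z N π ty) {k : Fin 2} {j : Fin 6}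
    (hlow : ∀ s, (T (pos z φ u s)).ncard ≤ 3 ∨ T (pos z φ u s) = T (z s.1))
    {h h' : Col} (E : H93.Ev T z (fun k l => N '' (KK π k l : Set (Fin 6))) φ u h h')
    (ha : Av (Xl T z φ (ltk N π)) u h) (ha' : Av (Xl T z φ (ltk N π)) u h') :
    AdjOK (tau T z φ u (k, j)) (tau T z φ u (k, j + 1)) (h (k, j)) (h' (k, j)) (h (k, j + 1))
      (h' (k, j + 1)) := by
  intro hne h1 h2
  have hadj : Adj z (k, j) (k, j + 1) := Or.inl ⟨rfl, Or.inl rfl⟩
  -- a point with the palette of the centre: the letters are the two pairs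
  have key : ∀ s t : Fin 2 × Fin 6, h s ≠ h' s → h s = h' t → h' s = h t →
      T (pos z φ u s) = T (z s.1) → (T (pos z φ u t)).ncard ≤ 3 → False := by
    intro s t hne h1 h2 hs ht
    have k1 := S.loc_true hs (ha s)
    have k2 := S.loc_true hs (ha' s)
    rcases ge2 _ k1 with e1 | e1 <;> rcases ge2 _ k2 with e2 | e2
    · exact hne (e1.trans e2.symm)
    · exact S.noAC ht (by rw [← e1, h1]; exact ha' t) (by rw [← e2, h2]; exact ha t)
    · exact S.noAC ht (by rw [← e2, h2]; exact ha t) (by rw [← e1, h1]; exact ha' t)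
    · exact hne (e1.trans e2.symm)
  rcases hlow (k, j) with c1 | c1
  · exfalso
    rcases hlow (k, j + 1) with c2 | c2
    · rcases E.swap (k, j) (k, j + 1) hadj c1 c2 with h3 | h3
      · have h3 : Disjoint (N '' (KK π k (h (k, j)) : Set (Fin 6)))
          (N '' (KK π k (h' (k, j + 1)) : Set (Fin 6))) := h3
        rw [h1] at h3
        obtain ⟨i, hi⟩ := W_nonempty (π := π) N k (h' (k, j + 1))
        exact Set.disjoint_left.1 h3 hi hi
      · have h3 : Disjoint (N '' (KK π k (h' (k, j)) : Set (Fin 6)))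
          (N '' (KK π k (h (k, j + 1)) : Set (Fin 6))) := h3
        rw [h2] at h3
        obtain ⟨i, hi⟩ := W_nonempty (π := π) N k (h (k, j + 1))
        exact Set.disjoint_left.1 h3 hi hi
    · exact key (k, j + 1) (k, j) (fun h3 => hne (h1.trans (h3.symm.trans h2.symm))) h2.symm h1.symm
        c2 c1
  · rcases hlow (k, j + 1) with c2 | c2
    · exact (key (k, j) (k, j + 1) hne h1 h2 c1 c2).elim
    · exact ⟨tau_true.2 c1, tau_true.2 c2⟩

/-- **The rules at a time which is not special.** -/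
theorem ev (S : Two U T z N π ty) {En : Fin 2 → Fin 4 → Fin 4 → Bool}
    (hlow : ∀ s, (T (pos z φ u s)).ncard ≤ 3 ∨ T (pos z φ u s) = T (z s.1))
    (hE : ∀ k j l m, T (pos z φ u (k, j)) ≠ T (z k) → u ∈ Xl T z φ (ltk N π) (k, j) l →
      u ∈ Xl T z φ (ltk N π) (k, j) m → En k l m = true) {h h' : Col}
    (hh : h ∈ LC (Xl T z φ (ltk N π)) u ∪ RC (Xl T z φ (ltk N π)) u)
    (hh' : h' ∈ LC (Xl T z φ (ltk N π)) u ∪ RC (Xl T z φ (ltk N π)) u) :
    H747.Ev π ty En (tau T z φ u) h h' := by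
  have w := S.fr.sw φ
  have E := S.fr.ev hh hh'
  have key : ∀ g ∈ LC (Xl T z φ (ltk N π)) u ∪ RC (Xl T z φ (ltk N π)) u,
      Av (Xl T z φ (ltk N π)) u g := by
    rintro g (hg | hg)
    · exact w.av_of_LC hg
    · exact w.av_of_RC hg
  have ha := key h hh
  have ha' := key h' hh'
  have legal : ∀ g, Lg T z (fun k l => N '' (KK π k l : Set (Fin 6))) g → H747.Leg π g := by
    intro g hg
    refine ⟨fun k j h1 => ?_, fun j => ?_, fun k j h1 => ?_⟩
    · have h2 : Disjoint (N '' (KK π k (g (k, j)) : Set (Fin 6)))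
          (N '' (KK π k (g (k, j + 1)) : Set (Fin 6))) :=
        hg.1 (k, j) (k, j + 1) (Or.inl ⟨rfl, Or.inl rfl⟩)
      rw [h1] at h2
      obtain ⟨i, hi⟩ := W_nonempty (π := π) N k (g (k, j + 1))
      exact Set.disjoint_left.1 h2 hi hi
    · have h2 : Disjoint (N '' (KK π 0 (g (0, j)) : Set (Fin 6)))
          (N '' (KK π 1 (g (1, j)) : Set (Fin 6))) := hg.1 (0, j) (1, j) (Or.inr ⟨rfl, S.dist⟩)
      exact (image_disj S.inj).1 h2
    · have h2 := hg.2 k j
      rw [h1.1, h1.2] at h2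
      have h3 : T (z k) \ (N '' (KK π k 2 : Set (Fin 6)) ∪ N '' (KK π k 3 : Set (Fin 6))) = ∅ := by
        rw [← col_nk, ← col_nk, (S.ctr k).pal, sdiff_eq_empty]
        rintro i (rfl | rfl | rfl | hi)
        · exact Or.inl (Or.inl rfl)
        · exact Or.inl (Or.inr rfl)
        · exact Or.inr (Or.inl rfl)
        · exact Or.inr (Or.inr hi)
      have h2 : 2 ≤ (T (z k) \ (N '' (KK π k 2 : Set (Fin 6)) ∪
        N '' (KK π k 3 : Set (Fin 6)))).ncard := h2
      rw [h3, Set.ncard_empty] at h2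
      omega
  refine ⟨legal _ E.leg, legal _ E.leg', fun k j => ⟨S.tyOK (ha (k, j)), S.tyOK (ha' (k, j))⟩,
    fun k j => ⟨fun ht => ?_, fun ht => ?_⟩, fun k j => S.adj_of hlow E ha ha', fun j h1 h2 => ?_,
    fun k j hk h2 h3 => ?_⟩
  · have ht := tau_true.1 ht
    exact ⟨S.loc_true ht (ha (k, j)), S.loc_true ht (ha' (k, j))⟩
  · have ht := tau_false.1 ht
    have h3 : (T (pos z φ u (k, j))).ncard ≤ 3 := (hlow (k, j)).resolve_right ht
    refine ⟨fun h4 => ?_, fun h4 => ?_, hE k j _ _ ht (ha (k, j)) (ha' (k, j))⟩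
    · exact S.noAC h3 (by rw [← h4.1]; exact ha (k, j)) (by rw [← h4.2]; exact ha' (k, j))
    · exact S.noAC h3 (by rw [← h4.2]; exact ha' (k, j)) (by rw [← h4.1]; exact ha (k, j))
  · by_contra hcon
    push Not at hcon
    have c1 : (T (pos z φ u (0, j))).ncard ≤ 3 := (hlow (0, j)).resolve_right fun h3 =>
      hcon.1 (tau_true.2 h3)
    have c2 : (T (pos z φ u (1, j))).ncard ≤ 3 := (hlow (1, j)).resolve_right fun h3 =>
      hcon.2 (tau_true.2 h3)
    rcases E.swap (0, j) (1, j) (Or.inr ⟨rfl, S.dist⟩) c1 c2 with h3 | h3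
    · exact h1 ((image_disj S.inj).1 h3)
    · exact h2 ((image_disj S.inj).1 h3)
  · refine S.opp (u := u) (φ := φ) (j := j) hk ?_ ?_
    · rcases h2 with h2 | h2
      · rw [← h2]; exact ha (k, j)
      · rw [← h2]; exact ha' (k, j)
    · rcases h3 with h3 | h3
      · rw [← h3]; exact ha (k, j + 3)
      · rw [← h3]; exact ha' (k, j + 3)

end Two

/-! ### The frame `Pr` of helper747 -/

variable {y : ℂ} {w : ℂ} {En : Fin 2 → Fin 4 → Fin 4 → Bool}

theorem two_cases : ∀ k : Fin 2, k = 0 ∨ k = 1 := by decide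

theorem lt2_eq : lt2 N π = ltk N π := by
  funext k P
  unfold lt2 ltk lt98 ltF cn nk
  rfl

theorem XP_eq : XP T w y N π φ = Xl T (ctr w y) φ (ltk N π) := by
  unfold XP
  rw [lt2_eq]

/-- `Pr` gives `Two` -/
theorem of_pr (P : Pr U T w y N π ty En) : Two U T (ctr w y) N π ty where
  irr := P.irr
  inj := P.inj
  ctr := P.ck
  dist := P.dist_ctr (k := 0) (k' := 1) (by decide)
  dpt := by
    intro k hk
    fin_cases k
    · exact P.dz
    · exact P.ty2 (hk.resolve_left (by decide))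
  ty0 := fun h => (P.ty0 h).1
  ty1 := by
    intro h
    by_cases h0 : ty = 0
    · exact (P.ty0 h0).2
    · refine (P.ty1 ?_).2
      revert h h0
      generalize ty = t
      revert t
      decide

/-- no slot point is a centre at a time which is not special -/
theorem pp_ne {u : ℝ} (hφ : pt w φ = y) (hu : u ∈ Ioo (0 : ℝ) 1) (k : Fin 2) (m : ℤ) :
    pt (ctr w y k) (φ + u + (m : ℝ)) ≠ ctr w y (1 - k) := by
  have key : ∀ (v : ℂ) (a b : ℝ) (n : ℤ), b - a = (n : ℝ) → pt v (a + u) ≠ pt v b := by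
    intro v a b n hab hcon
    obtain ⟨i, hi⟩ := S5.H122.pt_eq_iff hcon
    have h1 : u = ((n + 6 * i : ℤ) : ℝ) := by push_cast; linarith
    have h2 : (0 : ℝ) < ((n + 6 * i : ℤ) : ℝ) := by rw [← h1]; exact hu.1
    have h3 : ((n + 6 * i : ℤ) : ℝ) < 1 := by rw [← h1]; exact hu.2
    have h4 : (0 : ℤ) < n + 6 * i := by exact_mod_cast h2
    have h5 : n + 6 * i < (1 : ℤ) := by exact_mod_cast h3
    omega
  have hk : k = 0 ∨ k = 1 := two_cases k
  rcases hk with rfl | rfl
  · show pt w (φ + u + (m : ℝ)) ≠ y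
    have := key w (φ + m) φ (-m) (by push_cast; ring)
    rw [hφ, show φ + (m : ℝ) + u = φ + u + m by ring] at this
    exact this
  · show pt y (φ + u + (m : ℝ)) ≠ w
    have h3 : pt y (φ + 3) = w := by
      rw [pt_three, H703.pt_shift w y, hφ]; ring
    have := key y (φ + m) (φ + 3) (3 - m) (by push_cast; ring)
    rw [h3, show φ + (m : ℝ) + u = φ + u + m by ring] at this
    exact this

/-- the slot points have low order or the palette of the centre -/
theorem low_of_pr (P : Pr U T w y N π ty En) {u : ℝ} (hφ : pt w φ = y) (hu : u ∈ Ioo (0 : ℝ) 1)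
    (s : Fin 2 × Fin 6) :
    (T (pos (ctr w y) φ u s)).ncard ≤ 3 ∨ T (pos (ctr w y) φ u s) = T (ctr w y s.1) := by
  obtain ⟨k, j⟩ := s
  have h1 := pp_ne (w := w) hφ hu k (j.val : ℤ)
  have h1 : pos (ctr w y) φ u (k, j) ≠ ctr w y (1 - k) := by
    have e : φ + u + (((j.val : ℤ)) : ℝ) = φ + u + (j.val : ℝ) := by push_cast; ring
    rw [e] at h1
    exact h1
  have hk : k = 0 ∨ k = 1 := two_cases k
  rcases hk with rfl | rfl
  · exact P.pz _ (dist_pos (ctr w y) φ u (0, j)) h1
  · exact P.py _ (dist_pos (ctr w y) φ u (1, j)) h1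

/-- **The rules at a time which is not special.** -/
theorem _root_.Vale.Agent.P032.H747.Pr.ev (P : Pr U T w y N π ty En) (hφ : pt w φ = y) :
    ∀ u ∈ Ioo (0 : ℝ) 1, ∀ h ∈ LC (XP T w y N π φ) u ∪ RC (XP T w y N π φ) u,
      ∀ h' ∈ LC (XP T w y N π φ) u ∪ RC (XP T w y N π φ) u,
      H747.Ev π ty En (Pr.tau T w y φ u) h h' := by
  intro u hu h hh h' hh'
  rw [XP_eq] at hh hh'
  refine (of_pr P).ev (u := u) (φ := φ) (low_of_pr P hφ hu) ?_ hh hh'
  intro k j l m hne hl hm
  rw [← XP_eq] at hl hm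
  exact P.hE k _ l m (dist_pos (ctr w y) φ u (k, j)) ((low_of_pr P hφ hu (k, j)).resolve_right hne)
    (P.mem_Ls hl) (P.mem_Ls hm)

/-! ### The rules with the palettes of the slot points -/

/-- neighbouring slots of the two circles -/
def Nb (s t : Fin 2 × Fin 6) : Prop :=
  (s.1 = t.1 ∧ (t.2 = s.2 + 1 ∨ s.2 = t.2 + 1)) ∨ (s.2 = t.2 ∧ s.1 ≠ t.1)

instance (s t : Fin 2 × Fin 6) : Decidable (Nb s t) := by unfold Nb; infer_instance

/-- the rules for the columns before and after with the names `Q s` of the palettes of the slot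
points -/
structure EvQ (π : Fin 6 → Fin 6) (ty : Fin 3) (En : Fin 2 → Fin 4 → Fin 4 → Bool)
    (τ : Fin 2 × Fin 6 → Bool) (Q : Fin 2 × Fin 6 → Finset (Fin 6)) (h h' : Col) : Prop where
  ev : H747.Ev π ty En τ h h'
  /-- the colours of the letters -/
  pal : ∀ s, KK π s.1 (h s) ∪ KK π s.1 (h' s) ⊆ Q s
  low : ∀ s, τ s = false → (Q s).card ≤ 3
  full : ∀ s, τ s = true →
    Q s = {H747.nm π s.1 0, H747.nm π s.1 1, H747.nm π s.1 2, H747.nm π s.1 3}
  nsub : ∀ s t, Nb s t → τ s = false → τ t = false → ¬ Q s ⊆ Q t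
  third : ∀ s t r, Nb s t → Nb s r → r ≠ t → τ s = false → τ t = false →
    2 ≤ (Q s ∩ Q t).card → Disjoint (Q s \ Q t) (Q r)

/-- the names of the palettes -/
def QQ (T : ℂ → Set (Fin 6)) (z : Fin 2 → ℂ) (N : Fin 6 → Fin 6) (φ u : ℝ) (s : Fin 2 × Fin 6) :
    Finset (Fin 6) := H93.nm N (T (pos z φ u s))

theorem nb_adj (P : Pr U T w y N π ty En) {s t : Fin 2 × Fin 6} (h : Nb s t) :
    Adj (ctr w y) s t := h.imp id fun h => ⟨h.1, P.dist_ctr h.2⟩

theorem pos_up (z : Fin 2 → ℂ) (φ u : ℝ) (k : Fin 2) (j : Fin 6) :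
    pos z φ u (k, j + 1) =
      pos z φ u (k, j) + (pt (z k) (φ + u + ((j.val : ℤ) + 2 : ℤ)) - z k) := by
  rw [pos_succ]
  have := pt_sum (z k) (φ + u + (j.val : ℝ))
  show pt (z k) (φ + u + (j.val : ℝ) + 1) = pt (z k) (φ + u + (j.val : ℝ)) + _
  have e : φ + u + (((j.val : ℤ) + 2 : ℤ) : ℝ) = φ + u + (j.val : ℝ) + 2 := by push_cast; ring
  rw [e]
  linear_combination -this

theorem pos_down (z : Fin 2 → ℂ) (φ u : ℝ) (k : Fin 2) (j : Fin 6) :
    pos z φ u (k, j) =
      pos z φ u (k, j + 1) + (pt (z k) (φ + u + ((j.val : ℤ) + 5 : ℤ)) - z k) := by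
  have h1 := pos_up z φ u k j
  have e : φ + u + (((j.val : ℤ) + 5 : ℤ) : ℝ) = φ + u + (((j.val : ℤ) + 2 : ℤ) : ℝ) + 3 := by
    push_cast; ring
  rw [e, pt_three, h1]
  ring

/-- the line conditions for two neighbours of a slot at a time which is not special -/
theorem nb_line {u : ℝ} (hφ : pt w φ = y) (hu : u ∈ Ioo (0 : ℝ) 1)
    {s t r : Fin 2 × Fin 6} (hst : Nb s t) (hsr : Nb s r) (hrt : r ≠ t) :
    pos (ctr w y) φ u r ≠ pos (ctr w y) φ u t ∧
    pos (ctr w y) φ u r + pos (ctr w y) φ u t ≠ 2 * pos (ctr w y) φ u s := by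
  obtain ⟨k, j⟩ := s
  -- the step to a neighbour on the same circle is a unit vector in a direction of a slot
  have step : ∀ t : Fin 2 × Fin 6, Nb (k, j) t → t.1 = k → ∃ m : ℤ,
      pos (ctr w y) φ u t = pos (ctr w y) φ u (k, j) + (pt (ctr w y k) (φ + u + (m : ℝ)) -
        ctr w y k) := by
    rintro ⟨k', j'⟩ hN hk
    obtain rfl : k' = k := hk
    rcases hN with ⟨-, h1 | h1⟩ | ⟨-, h1⟩
    · obtain rfl : j' = j + 1 := h1
      exact ⟨_, pos_up _ φ u k' j⟩
    · obtain rfl : j = j' + 1 := h1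
      exact ⟨_, pos_down _ φ u k' j'⟩
    · exact absurd rfl h1
  have side : ∀ t : Fin 2 × Fin 6, Nb (k, j) t → t.1 ≠ k → t = (1 - k, j) := by
    rintro ⟨k', j'⟩ hN hk
    rcases hN with ⟨h0, -⟩ | ⟨h1, -⟩
    · exact absurd h0.symm hk
    · have h2 : ∀ k k' : Fin 2, k' ≠ k → k' = 1 - k := by decide
      have hk : k' ≠ k := hk
      have h1 : j = j' := h1
      rw [h2 k k' hk, h1]
  have far : ∀ m : ℤ, pt (ctr w y k) (φ + u + (m : ℝ)) ≠ ctr w y (1 - k) := fun m =>
    pp_ne hφ hu k m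
  have far3 : ∀ m : ℤ, ctr w y (1 - k) + pt (ctr w y k) (φ + u + (m : ℝ)) ≠ 2 * ctr w y k := by
    intro m hcon
    refine far (m + 3) ?_
    have e : φ + u + ((m + 3 : ℤ) : ℝ) = φ + u + (m : ℝ) + 3 := by push_cast; ring
    rw [e, pt_three]
    linear_combination -hcon
  have hside := pos_side (ctr w y) φ u k (1 - k) j
  -- one neighbour on the same circle, the other one on the other circle
  have mixed : ∀ t r : Fin 2 × Fin 6, Nb (k, j) t → Nb (k, j) r → t.1 = k → r.1 ≠ k →
      pos (ctr w y) φ u r ≠ pos (ctr w y) φ u t ∧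
      pos (ctr w y) φ u r + pos (ctr w y) φ u t ≠ 2 * pos (ctr w y) φ u (k, j) := by
    intro t r h1 h2 h3 h4
    obtain ⟨m, hm⟩ := step t h1 h3
    rw [side r h2 h4, hside, hm]
    constructor
    · intro hcon
      exact far m (by linear_combination -hcon)
    · intro hcon
      exact far3 m (by linear_combination hcon)
  by_cases ht : t.1 = k <;> by_cases hr : r.1 = k
  · -- both on the circle `k`
    have hz : ctr w y k ≠ pos (ctr w y) φ u (k, j) := by
      intro h0
      have h1 : Dist.dist (pos (ctr w y) φ u (k, j)) (ctr w y k) = 1 := dist_pos (ctr w y) φ u (k, j)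
      rw [← h0, dist_self] at h1
      exact zero_ne_one h1
    obtain ⟨kt, jt⟩ := t
    obtain ⟨kr, jr⟩ := r
    obtain rfl : kt = k := ht
    obtain rfl : kr = kt := hr
    have hj : (jt = j + 1 ∨ j = jt + 1) ∧ (jr = j + 1 ∨ j = jr + 1) := by
      constructor
      · rcases hst with ⟨-, h1⟩ | ⟨-, h1⟩
        · exact h1
        · exact absurd rfl h1
      · rcases hsr with ⟨-, h1⟩ | ⟨-, h1⟩
        · exact h1
        · exact absurd rfl h1
    have main : ∀ i : Fin 6,
        pos (ctr w y) φ u (kr, i + 1 + 1) ≠ pos (ctr w y) φ u (kr, i) ∧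
        pos (ctr w y) φ u (kr, i + 1 + 1) + pos (ctr w y) φ u (kr, i) =
          pos (ctr w y) φ u (kr, i + 1) + ctr w y kr := by
      intro i
      have e1 := pos_succ (ctr w y) φ u kr (i + 1)
      have e2 := pos_succ (ctr w y) φ u kr i
      have e3 : pos (ctr w y) φ u (kr, i + 1 + 1) =
          pt (ctr w y kr) (φ + u + (i.val : ℝ) + 2) := by
        have h4 := pos_up (ctr w y) φ u kr (i + 1)
        have h5 := pos_up (ctr w y) φ u kr i
        have h6 := pt_sum (ctr w y kr) (φ + u + (i.val : ℝ))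
        have h7 : pos (ctr w y) φ u (kr, i) = pt (ctr w y kr) (φ + u + (i.val : ℝ)) := rfl
        have h8 : Sweep.pt_succ (ctr w y kr) φ u (i + 1) = Sweep.pt_succ (ctr w y kr) φ u (i + 1) :=
          rfl
        have h9 := Sweep.pt_succ (ctr w y kr) φ u i
        have h10 : pos (ctr w y) φ u (kr, i + 1 + 1) =
            pt (ctr w y kr) (φ + u + ((i + 1 : Fin 6).val : ℝ) + 1) := e1
        rw [h10]
        by_cases hi : i.val < 5
        · have h11 : (i + 1 : Fin 6).val = i.val + 1 := by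
            have : ∀ j : Fin 6, j.val < 5 → (j + 1 : Fin 6).val = j.val + 1 := by decide
            exact this i hi
          rw [h11]
          congr 1
          push_cast; ring
        · have h11 : (i + 1 : Fin 6).val = 0 ∧ i.val = 5 := by
            have : ∀ j : Fin 6, ¬ j.val < 5 → (j + 1 : Fin 6).val = 0 ∧ j.val = 5 := by decide
            exact this i hi
          rw [h11.1, h11.2, ← pt_six (ctr w y kr) (φ + u + ((0 : ℕ) : ℝ) + 1)]
          congr 1
          push_cast; ring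
      have e4 : pos (ctr w y) φ u (kr, i) = pt (ctr w y kr) (φ + u + (i.val : ℝ)) := rfl
      have e5 := pt_sum (ctr w y kr) (φ + u + (i.val : ℝ))
      refine ⟨fun hcon => ?_, by rw [e3, e4, e2]; linear_combination e5⟩
      rw [e3, e4] at hcon
      obtain ⟨n, hn⟩ := S5.H122.pt_eq_iff hcon
      have h1 : (2 : ℝ) = 6 * (n : ℝ) := by linarith
      have h2 : (2 : ℤ) = 6 * n := by exact_mod_cast h1
      omega
    rcases hj with ⟨rfl | h1, rfl | h2⟩
    · exact absurd rfl hrt
    · subst h2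
      obtain ⟨m1, m2⟩ := main jr
      refine ⟨m1.symm, fun hcon => hz ?_⟩
      have : pos (ctr w y) φ u (kr, jr) + pos (ctr w y) φ u (kr, jr + 1 + 1) =
        2 * pos (ctr w y) φ u (kr, jr + 1) := hcon
      linear_combination -m2 + this
    · subst h1
      obtain ⟨m1, m2⟩ := main jt
      refine ⟨m1, fun hcon => hz ?_⟩
      linear_combination -m2 + hcon
    · subst h1
      have : jr = jt := by
        have := h2
        exact (add_right_cancel this).symm
      exact absurd (by rw [this]) hrt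
  · exact mixed t r hst hsr ht hr
  · obtain ⟨m1, m2⟩ := mixed r t hsr hst hr ht
    exact ⟨m1.symm, by rw [add_comm]; exact m2⟩
  · exact absurd ((side r hsr hr).trans (side t hst ht).symm) hrt

/-- **The rules with the palettes of the slot points.** -/
theorem _root_.Vale.Agent.P032.H747.Pr.evQ (P : Pr U T w y N π ty En) (hφ : pt w φ = y) :
    ∀ u ∈ Ioo (0 : ℝ) 1, ∀ h ∈ LC (XP T w y N π φ) u ∪ RC (XP T w y N π φ) u,
      ∀ h' ∈ LC (XP T w y N π φ) u ∪ RC (XP T w y N π φ) u,
      EvQ π ty En (Pr.tau T w y φ u) (QQ T (ctr w y) N φ u) h h' := by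
  intro u hu h hh h' hh'
  have S := of_pr P
  have hq := P.ev hφ u hu h hh h' hh'
  rw [XP_eq] at hh hh'
  have E := S.fr.ev (u := u) (φ := φ) hh hh'
  have hc : ∀ s, (QQ T (ctr w y) N φ u s).card = (T (pos (ctr w y) φ u s)).ncard := fun s =>
    card_nm P.inj _
  have hlow : ∀ s, Pr.tau T w y φ u s = false → (T (pos (ctr w y) φ u s)).ncard ≤ 3 := by
    rintro ⟨k, j⟩ hs
    exact (low_of_pr P hφ hu (k, j)).resolve_right (Pr.tau_false.1 hs)
  refine ⟨hq, fun s => ?_, fun s hs => ?_, fun s hs => ?_,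
    fun s t hst hs ht hsub => ?_, fun s t r hst hsr hrt hs ht h2 => ?_⟩
  · have h1 := nm_mono (N := N) (E.pal s)
    rw [nm_union, nm_image P.inj, nm_image P.inj] at h1
    exact h1
  · rw [hc]; exact hlow s hs
  · obtain ⟨k, j⟩ := s
    have h1 : T (pos (ctr w y) φ u (k, j)) = T (ctr w y k) := Pr.tau_true.1 hs
    have h2 := (S.ctr k).pal
    ext i
    unfold QQ
    rw [mem_nm, h1, h2]
    simp only [nk, mem_insert_iff, mem_singleton_iff, Finset.mem_insert, Finset.mem_singleton]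
    constructor
    · rintro (h3 | h3 | h3 | h3)
      · exact Or.inl (P.inj h3)
      · exact Or.inr (Or.inl (P.inj h3))
      · exact Or.inr (Or.inr (Or.inl (P.inj h3)))
      · exact Or.inr (Or.inr (Or.inr (P.inj h3)))
    · rintro (h3 | h3 | h3 | h3)
      · exact Or.inl (by rw [h3])
      · exact Or.inr (Or.inl (by rw [h3]))
      · exact Or.inr (Or.inr (Or.inl (by rw [h3])))
      · exact Or.inr (Or.inr (Or.inr (by rw [h3])))
  · refine E.nsub s t (nb_adj P hst) (hlow s hs) (hlow t ht) fun i hi => ?_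
    obtain ⟨j, rfl⟩ := (Finite.injective_iff_surjective.1 P.inj) i
    exact mem_nm.1 (hsub (mem_nm.2 hi))
  · obtain ⟨k1, k2⟩ := nb_line hφ hu hst hsr hrt
    have h4 := E.third s t r (nb_adj P hst) (nb_adj P hsr) (hlow s hs) (hlow t ht) (by
      rw [← card_nm P.inj, nm_inter]; exact h2) k1 k2
    rw [← nm_disj P.inj, nm_sdiff] at h4
    exact h4

end Vale.Agent.P032.H93
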