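import Vale.Agent.P032.H93.Frame
import Vale.Agent.P032.S5.H767.Let

/-!
# P032: circles of points with four colours in the frame `Fr`

`xx_of_four`: a point with at least four colours is in `XX`.
`Fr.of_ctr`: any finite family of centres with four colours (`Ctr`), letters `Fin 4`
(free, free, pair, pair).
-/

open Set Filter Topology Metric

noncomputable section

namespace Vale.Agent.P032.H93

open Vale.Agent.P032.Six Vale.Agent.P032.Sweep Vale.Agent.P032.S5.H767 Vale.Agent.P032.S5.H122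
  Vale.Agent.P032.H187

variable {κ : Type} {U : Fin 6 → Set ℂ} {T : ℂ → Set (Fin 6)}

/-- a point with at least four colours is in `XX` -/
theorem xx_of_four (h : Irr U T) {z : ℂ} (h4 : 4 ≤ (T z).ncard) : z ∈ XX U := by
  by_contra hz
  have hdis : ∀ s, Disjoint (T (pt z s)) (T z) := by
    intro s
    rw [Set.disjoint_left]
    intro i hi hiz
    exact h.off_pal (by rw [dist_comm]; exact dist_pt z s) hz hiz (h.sub _ hi)
  have hcard : ∀ s, (T (pt z s)).ncard ≤ 2 := by
    intro s
    have h1 : T (pt z s) ⊆ (T z)ᶜ := fun i hi hiz => Set.disjoint_left.1 (hdis s) hi hiz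
    have h2 := Set.ncard_le_ncard h1 (Set.toFinite _)
    have h3 := Set.ncard_add_ncard_compl (T z)
    rw [Nat.card_eq_fintype_card, Fintype.card_fin] at h3
    omega
  -- a colour `e` of `pt z 0`
  obtain ⟨e, he⟩ := h.ne (pt z 0)
  have hone : ∀ s, ∃ i, T (pt z s) = {i} := by
    intro s
    obtain ⟨i, hi⟩ := h.ne (pt z s)
    by_contra hcon
    have h2 : (T (pt z s)).ncard = 2 := by
      have h3 := hcard s
      have h4' : (T (pt z s)).ncard ≠ 1 := fun h5 => by
        obtain ⟨j, hj⟩ := Set.ncard_eq_one.1 h5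
        exact hcon ⟨j, hj⟩
      have h5 : 0 < (T (pt z s)).ncard := (Set.ncard_pos (Set.toFinite _)).2 ⟨i, hi⟩
      omega
    have h3 : T (pt z s) = (T z)ᶜ := by
      refine Set.eq_of_subset_of_ncard_le (fun i hi hiz => Set.disjoint_left.1 (hdis s) hi hiz) ?_
        (Set.toFinite _)
      have h3 := Set.ncard_add_ncard_compl (T z)
      rw [Nat.card_eq_fintype_card, Fintype.card_fin] at h3
      omega
    obtain ⟨x, hx, hx'⟩ := h.not_sub' (x := pt z s) (y := pt z (s + 1))
      (by first | exact dist_pt_one z s | (rw [dist_comm]; exact dist_pt_one z s))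
      (by have := hcard s; omega)
    refine hx' ?_
    rw [h3]
    exact fun hxz => Set.disjoint_left.1 (hdis (s + 1)) hx hxz
  -- the two closed sets
  have hclo : ∀ i, IsClosed {s : ℝ | i ∈ T (pt z s)} := fun i =>
    (h.closed i).preimage (continuous_pt z)
  have hcl2 : IsClosed {s : ℝ | ∃ i, i ≠ e ∧ i ∈ T (pt z s)} := by
    have : {s : ℝ | ∃ i, i ≠ e ∧ i ∈ T (pt z s)} =
        ⋃ i : {i : Fin 6 // i ≠ e}, {s : ℝ | i.1 ∈ T (pt z s)} := by
      ext s
      simp only [mem_ofPred_eq, mem_iUnion, Subtype.exists, exists_prop]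
    rw [this]
    exact isClosed_iUnion_of_finite fun i => hclo i.1
  have hcov : (univ : Set ℝ) ⊆ {s : ℝ | e ∈ T (pt z s)} ∪ {s : ℝ | ∃ i, i ≠ e ∧ i ∈ T (pt z s)} := by
    intro s _
    obtain ⟨i, hi⟩ := h.ne (pt z s)
    by_cases hie : i = e
    · subst hie; exact Or.inl hi
    · exact Or.inr ⟨i, hie, hi⟩
  have hno : ∀ s, e ∈ T (pt z s) → ¬ ∃ i, i ≠ e ∧ i ∈ T (pt z s) := by
    rintro s hs ⟨i, hie, hi⟩
    obtain ⟨j, hj⟩ := hone s
    rw [hj, mem_singleton_iff] at hs hi
    exact hie (hi.trans hs.symm)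
  have hall : ∀ s, e ∈ T (pt z s) := by
    intro s
    by_contra hcon
    have h1 : s ∈ {s : ℝ | ∃ i, i ≠ e ∧ i ∈ T (pt z s)} := (hcov (mem_univ s)).resolve_left hcon
    obtain ⟨t, -, ht1, ht2⟩ := isPreconnected_closed_iff.1 isPreconnected_univ _ _ (hclo e) hcl2
      hcov ⟨0, mem_univ _, he⟩ ⟨s, mem_univ _, h1⟩
    exact hno t ht1 ht2
  obtain ⟨x, hx, hx'⟩ := h.not_sub' (x := pt z 0) (y := pt z (0 + 1))
    (by first | exact dist_pt_one z 0 | (rw [dist_comm]; exact dist_pt_one z 0))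
    (by have := hcard 0; omega)
  obtain ⟨j, hj⟩ := hone (0 + 1)
  have h5 := hall (0 + 1)
  rw [hj, mem_singleton_iff] at hx h5
  exact hx' (by rw [hx, ← h5]; exact hall 0)

open Classical in
/-- the letter of a palette: free, free, pair, pair -/
def ltF (a b e f : Fin 6) (P : Set (Fin 6)) : Fin 4 :=
  if e ∈ P then 0 else if f ∈ P then 1 else if P = {a, b} then 2 else 3

section ctr

variable {z : ℂ} {a b c d e f : Fin 6}

/-- the letter of a constant palette -/
theorem ltF_sub (C : Ctr U T z a b c d e f) {s : ℝ} (hs : s ∈ Lc T z) :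
    col a b c d e f (ltF a b e f (T (pt z s))) ⊆ T (pt z s) ∧
    (col a b c d e f (ltF a b e f (T (pt z s))) ⊆ T z →
      T (pt z s) = col a b c d e f (ltF a b e f (T (pt z s)))) := by
  have hn := C.nd
  simp only [List.nodup_cons, List.mem_cons, List.not_mem_nil, or_false, not_or, List.nodup_nil,
    and_true, not_false_eq_true] at hn
  obtain ⟨⟨ab, ac, ad, ae, af⟩, ⟨bc, bd, be, bf⟩, ⟨cd, ce, cf⟩, ⟨de, df⟩, ef⟩ := hn
  have he : e ∉ T z := by
    rw [C.pal]
    simp only [mem_insert_iff, mem_singleton_iff, not_or]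
    exact ⟨Ne.symm ae, Ne.symm be, Ne.symm ce, Ne.symm de⟩
  have hf : f ∉ T z := by
    rw [C.pal]
    simp only [mem_insert_iff, mem_singleton_iff, not_or]
    exact ⟨Ne.symm af, Ne.symm bf, Ne.symm cf, Ne.symm df⟩
  unfold ltF
  split_ifs with h1 h2 h3
  · refine ⟨singleton_subset_iff.2 h1, fun h4 => absurd (h4 (mem_singleton e)) he⟩
  · refine ⟨singleton_subset_iff.2 h2, fun h4 => absurd (h4 (mem_singleton f)) hf⟩
  · exact ⟨h3.ge, fun _ => h3⟩
  · have hPz : T (pt z s) ⊆ T z := by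
      intro i hi
      by_contra hcon
      rcases C.miss hcon with rfl | rfl
      · exact h1 hi
      · exact h2 hi
    rcases C.pairs (pt z s) (dist_pt z s) (Lc_circle hs) hPz with h4 | h4
    · exact absurd h4 h3
    · exact ⟨h4.ge, fun _ => h4⟩

theorem isLt_col (C : Ctr U T z a b c d e f) (l : Fin 4) : IsLt T z (col a b c d e f l) := by
  have hn := C.nd
  simp only [List.nodup_cons, List.mem_cons, List.not_mem_nil, or_false, not_or, List.nodup_nil,
    and_true, not_false_eq_true] at hn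
  obtain ⟨⟨ab, ac, ad, ae, af⟩, ⟨bc, bd, be, bf⟩, ⟨cd, ce, cf⟩, ⟨de, df⟩, ef⟩ := hn
  fin_cases l
  · left
    refine ⟨e, ?_, rfl⟩
    rw [C.pal]
    simp only [mem_insert_iff, mem_singleton_iff, not_or]
    exact ⟨Ne.symm ae, Ne.symm be, Ne.symm ce, Ne.symm de⟩
  · left
    refine ⟨f, ?_, rfl⟩
    rw [C.pal]
    simp only [mem_insert_iff, mem_singleton_iff, not_or]
    exact ⟨Ne.symm af, Ne.symm bf, Ne.symm cf, Ne.symm df⟩
  · right
    refine ⟨?_, (Set.ncard_pair ab).ge⟩
    rw [C.pal]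
    rintro i (rfl | rfl) <;> simp
  · right
    refine ⟨?_, (Set.ncard_pair cd).ge⟩
    rw [C.pal]
    rintro i (rfl | rfl) <;> simp

theorem four_of_ctr (C : Ctr U T z a b c d e f) : 4 ≤ (T z).ncard := by
  have hn := C.nd
  refine four_le (p := a) (q := b) (r := c) (t := d) ?_ ?_ ?_ ?_ ?_
  · rw [C.pal]; simp
  · rw [C.pal]; simp
  · rw [C.pal]; simp
  · rw [C.pal]; simp
  · exact hn.sublist (by
      have : ([a, b, c, d] : List (Fin 6)).Sublist ([a, b, c, d] ++ [e, f]) :=
        List.sublist_append_left _ _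
      exact this)

end ctr

/-- **The frame for centres with four colours.** -/
theorem Fr.of_ctr (h : Irr U T) {z : κ → ℂ} {n : κ → Fin 6 → Fin 6}
    (hC : ∀ k, Ctr U T (z k) (n k 0) (n k 1) (n k 2) (n k 3) (n k 4) (n k 5)) :
    Fr U T z (fun k l => col (n k 0) (n k 1) (n k 2) (n k 3) (n k 4) (n k 5) l)
      (fun k => ltF (n k 0) (n k 1) (n k 4) (n k 5)) where
  irr := h
  xx := fun k => xx_of_four h (four_of_ctr (hC k))
  four := fun k => four_of_ctr (hC k)
  isLt := fun k l => isLt_col (hC k) l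
  sub := fun k _ hs => (ltF_sub (hC k) hs).1
  ex := fun k _ hs => (ltF_sub (hC k) hs).2

end Vale.Agent.P032.H93
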