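import Vale.Agent.P032.H383.Letters
import Vale.Agent.P032.H187.Swap


/-!
# P032: several circles, letters and all simultaneous changes (the interface for the tables)

`Fr U T z W lt` : centres `z c` with at least four colours, `W c l` the colours of the letter `l` of the
circle `c`, `lt c P` the letter of the palette `P`.

* `Fr.sw`     : the structure `Sw` of the sweep theorem with the legal columns `Lg`;
* `Fr.avail`  : an available letter: its colours are in the palette of the point; pair letters are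
  limits of exact arcs;
* `Ev`        : the rules for the column before and the column after at any time: palettes of at most
  three colours, no swap, third colour;
* `Fr.ev`     : any two limit columns at a time satisfy `Ev`.
-/

open Set Filter Topology Metric

noncomputable section

namespace Vale.Agent.P032.H93

open Vale.Agent.P032.Six Vale.Agent.P032.Sweep Vale.Agent.P032.S5.H767 Vale.Agent.P032.S5.H122
  Vale.Agent.P032.H187

variable {κ Λ : Type} {U : Fin 6 → Set ℂ} {T : ℂ → Set (Fin 6)} {z : κ → ℂ}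
  {W : κ → Λ → Set (Fin 6)} {lt : κ → Set (Fin 6) → Λ} {φ u : ℝ}

/-- several centres with letters -/
structure Fr (U : Fin 6 → Set ℂ) (T : ℂ → Set (Fin 6)) (z : κ → ℂ) (W : κ → Λ → Set (Fin 6))
    (lt : κ → Set (Fin 6) → Λ) : Prop where
  irr : Irr U T
  xx : ∀ c, z c ∈ XX U
  four : ∀ c, 4 ≤ (T (z c)).ncard
  isLt : ∀ c l, IsLt T (z c) (W c l)
  sub : ∀ c s, s ∈ Lc T (z c) → W c (lt c (T (pt (z c) s))) ⊆ T (pt (z c) s)
  ex : ∀ c s, s ∈ Lc T (z c) → W c (lt c (T (pt (z c) s))) ⊆ T (z c) →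
    T (pt (z c) s) = W c (lt c (T (pt (z c) s)))

/-- the point of a slot -/
def pos (z : κ → ℂ) (φ u : ℝ) (s : κ × Fin 6) : ℂ := pt (z s.1) (φ + u + (s.2.val : ℝ))

theorem dist_pos (z : κ → ℂ) (φ u : ℝ) (s : κ × Fin 6) : dist (pos z φ u s) (z s.1) = 1 :=
  dist_pt _ _

theorem pos_succ (z : κ → ℂ) (φ u : ℝ) (c : κ) (j : Fin 6) :
    pos z φ u (c, j + 1) = pt (z c) (φ + u + (j.val : ℝ) + 1) := pt_succ (z c) φ u j

theorem pos_add3 (z : κ → ℂ) (φ u : ℝ) (c : κ) (j : Fin 6) :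
    pos z φ u (c, j + 3) = 2 * z c - pos z φ u (c, j) := by
  show pt (z c) (φ + u + ((j + 3 : Fin 6).val : ℝ)) = _
  rw [pt_add3, pt_three]; rfl

theorem pos_side (z : κ → ℂ) (φ u : ℝ) (c c' : κ) (j : Fin 6) :
    pos z φ u (c', j) = z c' + (pos z φ u (c, j) - z c) := by
  show pt (z c') _ = z c' + (pt (z c) _ - z c)
  unfold pt; ring

/-- adjacent slots: neighbours on a circle, or the same direction on two circles at distance one -/
def Adj (z : κ → ℂ) (s t : κ × Fin 6) : Prop :=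
  (s.1 = t.1 ∧ (t.2 = s.2 + 1 ∨ s.2 = t.2 + 1)) ∨ (s.2 = t.2 ∧ dist (z s.1) (z t.1) = 1)

theorem Adj.symm {s t : κ × Fin 6} (h : Adj z s t) : Adj z t s := by
  rcases h with ⟨h1, h2⟩ | ⟨h1, h2⟩
  · exact Or.inl ⟨h1.symm, h2.symm⟩
  · exact Or.inr ⟨h1.symm, by rw [dist_comm]; exact h2⟩

theorem dist_pos_succ (z : κ → ℂ) (φ u : ℝ) (c : κ) (j : Fin 6) :
    dist (pos z φ u (c, j)) (pos z φ u (c, j + 1)) = 1 := by
  rw [pos_succ]; exact dist_pt_one _ _

theorem Adj.dist {s t : κ × Fin 6} (h : Adj z s t) (φ u : ℝ) :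
    dist (pos z φ u s) (pos z φ u t) = 1 := by
  obtain ⟨c, j⟩ := s
  obtain ⟨c', j'⟩ := t
  rcases h with ⟨h1, h2 | h2⟩ | ⟨h1, h2⟩
  · obtain rfl : c = c' := h1
    obtain rfl : j' = j + 1 := h2
    exact dist_pos_succ z φ u c j
  · obtain rfl : c = c' := h1
    obtain rfl : j = j' + 1 := h2
    rw [dist_comm]
    exact dist_pos_succ z φ u c j'
  · obtain rfl : j = j' := h1
    have h3 : Dist.dist (z c) (z c') = 1 := h2
    rw [pos_side z φ u c c' j, dist_eq_norm]
    rw [dist_eq_norm] at h3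
    rw [← h3]
    congr 1; ring

/-- legal columns -/
def Lg (T : ℂ → Set (Fin 6)) (z : κ → ℂ) (W : κ → Λ → Set (Fin 6)) (g : κ × Fin 6 → Λ) : Prop :=
  (∀ s t, Adj z s t → Disjoint (W s.1 (g s)) (W t.1 (g t))) ∧
  ∀ c j, 2 ≤ (T (z c) \ (W c (g (c, j)) ∪ W c (g (c, j + 3)))).ncard

/-- the rules for the columns before and after, at the time `u` -/
structure Ev (T : ℂ → Set (Fin 6)) (z : κ → ℂ) (W : κ → Λ → Set (Fin 6)) (φ u : ℝ)
    (g g' : κ × Fin 6 → Λ) : Prop where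
  leg : Lg T z W g
  leg' : Lg T z W g'
  /-- all colours are in the palette -/
  pal : ∀ s, W s.1 (g s) ∪ W s.1 (g' s) ⊆ T (pos z φ u s)
  /-- no swap at two adjacent slots with at most three colours -/
  swap : ∀ s t, Adj z s t → (T (pos z φ u s)).ncard ≤ 3 → (T (pos z φ u t)).ncard ≤ 3 →
    Disjoint (W s.1 (g s)) (W t.1 (g' t)) ∨ Disjoint (W s.1 (g' s)) (W t.1 (g t))
  /-- adjacent slots with at most three colours have no inclusion of palettes -/
  nsub : ∀ s t, Adj z s t → (T (pos z φ u s)).ncard ≤ 3 → (T (pos z φ u t)).ncard ≤ 3 →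
    ¬ T (pos z φ u s) ⊆ T (pos z φ u t)
  /-- third colour -/
  third : ∀ s t r, Adj z s t → Adj z s r → (T (pos z φ u s)).ncard ≤ 3 →
    (T (pos z φ u t)).ncard ≤ 3 → 2 ≤ (T (pos z φ u s) ∩ T (pos z φ u t)).ncard →
    pos z φ u r ≠ pos z φ u t → pos z φ u r + pos z φ u t ≠ 2 * pos z φ u s →
    Disjoint (T (pos z φ u s) \ T (pos z φ u t)) (T (pos z φ u r))

namespace Fr

/-- an available letter -/
theorem avail (F : Fr U T z W lt) {s : κ × Fin 6} {l : Λ} (hu : u ∈ Xl T z φ lt s l) :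
    W s.1 l ⊆ T (pos z φ u s) := by
  obtain ⟨P, hP, h1, h2⟩ := Xl_pal hu
  obtain ⟨v, hv1, hv2⟩ : ({v | v ∈ Lc T (z s.1) ∧ T (pt (z s.1) v) = P} : Set ℝ).Nonempty :=
    closure_nonempty_iff.1 ⟨_, h1⟩
  have h3 := F.sub s.1 v hv1
  rw [hv2, hP] at h3
  exact h3.trans (sub_of_closure F.irr h2)

/-- an available pair letter is a limit of exact arcs -/
theorem avail_ex (F : Fr U T z W lt) {s : κ × Fin 6} {l : Λ} (hu : u ∈ Xl T z φ lt s l)
    (hl : W s.1 l ⊆ T (z s.1)) : pos z φ u s ∈ closure (Ex T (z s.1) (W s.1 l)) := by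
  obtain ⟨P, hP, h1, h2⟩ := Xl_pal hu
  obtain ⟨v, hv1, hv2⟩ : ({v | v ∈ Lc T (z s.1) ∧ T (pt (z s.1) v) = P} : Set ℝ).Nonempty :=
    closure_nonempty_iff.1 ⟨_, h1⟩
  have h3 := F.ex s.1 v hv1
  rw [hv2, hP] at h3
  rw [h3 hl] at h2
  exact h2

theorem sw [Finite κ] [Finite Λ] (F : Fr U T z W lt) (φ : ℝ) : Sw (Xl T z φ lt) (Lg T z W) := by
  refine sw_of F.irr (Dir_dense z φ) fun u hd hu => ?_
  have B := bas_of F.irr hu hd
  have hs : ∀ s : κ × Fin 6, W s.1 (lt s.1 (pals T z φ u s)) ⊆ pals T z φ u s := fun s =>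
    F.sub s.1 _ (hu s)
  refine ⟨fun s t hst => ?_, fun c j => ?_⟩
  · obtain ⟨c, j⟩ := s
    obtain ⟨c', j'⟩ := t
    rcases hst with ⟨h1, h2 | h2⟩ | ⟨h1, h2⟩
    · obtain rfl : c = c' := h1
      obtain rfl : j' = j + 1 := h2
      exact (B.sixty c j).mono (hs _) (hs _)
    · obtain rfl : c = c' := h1
      obtain rfl : j = j' + 1 := h2
      exact ((B.sixty c j').mono (hs _) (hs _)).symm
    · obtain rfl : j = j' := h1
      exact (B.prod c c' h2 j).mono (hs _) (hs _)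
  · exact (B.anti c (F.xx c) j).trans (Set.ncard_le_ncard
      (sdiff_subset_sdiff_right (union_subset_union (hs (c, j)) (hs (c, j + 3)))) (Set.toFinite _))

/-- points with at least four colours are no slot points of low order -/
theorem ne_centre (F : Fr U T z W lt) {p : ℂ} (h3 : (T p).ncard ≤ 3) (c : κ) : p ≠ z c := by
  rintro rfl
  have := F.four c
  omega

/-- the line conditions at adjacent slots of low order -/
theorem off_line (F : Fr U T z W lt) {s t : κ × Fin 6} (hst : Adj z s t)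
    (h3 : (T (pos z φ u s)).ncard ≤ 3) (h3' : (T (pos z φ u t)).ncard ≤ 3) :
    z s.1 ≠ pos z φ u t ∧ z s.1 + pos z φ u t ≠ 2 * pos z φ u s := by
  refine ⟨(F.ne_centre h3' s.1).symm, fun hcon => ?_⟩
  obtain ⟨c, j⟩ := s
  obtain ⟨c', j'⟩ := t
  rcases hst with ⟨h1, h2⟩ | ⟨h1, h2⟩
  · obtain rfl : c = c' := h1
    have hd : dist (pos z φ u (c, j')) (pos z φ u (c, j)) = 1 := by
      have := (show Adj z (c, j) (c, j') from Or.inl ⟨rfl, h2⟩).dist φ u
      rw [dist_comm]; exact this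
    have hz : dist (pos z φ u (c, j')) (z c) = 1 := dist_pos z φ u (c, j')
    exact (tri (dist_pos z φ u (c, j)) hz).2 hcon
  · obtain rfl : j = j' := h1
    have e := pos_side z φ u c c' j
    refine F.ne_centre h3 c' ?_
    have hcon : z c + pos z φ u (c', j) = 2 * pos z φ u (c, j) := hcon
    rw [e] at hcon
    linear_combination -hcon

/-- **Any two limit columns satisfy the rules.** -/
theorem ev [Finite κ] [Finite Λ] (F : Fr U T z W lt) {g g' : κ × Fin 6 → Λ}
    (hg : g ∈ LC (Xl T z φ lt) u ∪ RC (Xl T z φ lt) u)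
    (hg' : g' ∈ LC (Xl T z φ lt) u ∪ RC (Xl T z φ lt) u) : Ev T z W φ u g g' := by
  have w := F.sw φ
  have key : ∀ g ∈ LC (Xl T z φ lt) u ∪ RC (Xl T z φ lt) u,
      Lg T z W g ∧ Av (Xl T z φ lt) u g := by
    rintro g (hh | hh)
    · exact ⟨w.leg_of_LC hh, w.av_of_LC hh⟩
    · exact ⟨w.leg_of_RC hh, w.av_of_RC hh⟩
  obtain ⟨hL, ha⟩ := key g hg
  obtain ⟨hL', ha'⟩ := key g' hg'
  refine ⟨hL, hL', fun s => union_subset (F.avail (ha s)) (F.avail (ha' s)), ?_, ?_, ?_⟩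
  · intro s t hst h3 h3'
    by_contra hcon
    push Not at hcon
    obtain ⟨h1, h2⟩ := hcon
    obtain ⟨k1, k2⟩ := F.off_line hst h3 h3'
    exact noswap187 F.irr (dist_pos z φ u s) (hst.dist φ u) k1 k2 (F.four _) h3 h3'
      (F.avail (ha s)) (F.avail (ha' s)) (F.avail (ha t)) (F.avail (ha' t)) (F.isLt _ _)
      (F.isLt _ _) (hL.1 s t hst) (hL'.1 s t hst) h1 h2
  · intro s t hst h3 h3' hsub
    obtain ⟨x, hx, hx'⟩ := F.irr.not_sub' (hst.dist φ u) h3'
    exact hx' (hsub hx)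
  · intro s t r hst hsr h3 h3' h2 hne hne2
    obtain ⟨i, hi, j, hj, hij⟩ := (Set.one_lt_ncard (Set.toFinite _)).1 h2
    obtain ⟨x, hx, hx', hT, hX⟩ := third187 F.irr (hst.dist φ u) h3 h3' hij hi.1 hj.1 hi.2 hj.2
    rw [Set.disjoint_left]
    rintro y ⟨hy, hy'⟩ hyr
    have : y = x := by
      rw [hT] at hy
      rcases hy with rfl | rfl | hy
      · exact absurd hi.2 hy'
      · exact absurd hj.2 hy'
      · exact hy
    subst this
    exact hX _ (hsr.dist φ u) hne hne2 (F.irr.sub _ hyr)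

end Fr

end Vale.Agent.P032.H93
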